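import Mathlib

namespace Vale.Agent.P064

open Finset

lemma hockey (a t : ℕ) : ∑ j ∈ range a, j.choose t = a.choose (t + 1) := by
  induction a with
  | zero => simp
  | succ a ih => rw [sum_range_succ, ih, Nat.choose_succ_succ, add_comm]

lemma binom_identity (n T : ℕ) (q : ℝ) :
    ∑ D ∈ range (n + 1), (n.choose D : ℝ) * (D.choose T : ℝ) * q ^ D =
      (n.choose T : ℝ) * q ^ T * (1 + q) ^ (n - T) := by
  rcases le_or_gt T n with hT | hT
  · obtain ⟨r, rfl⟩ : ∃ r, n = T + r := ⟨n - T, by omega⟩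
    have e1 : T + r + 1 = T + (r + 1) := by ring
    rw [e1, sum_range_add]
    have z : ∑ x ∈ range T, ((T + r).choose x : ℝ) * (x.choose T : ℝ) * q ^ x = 0 := by
      apply sum_eq_zero
      intro x hx
      rw [Nat.choose_eq_zero_of_lt (mem_range.mp hx)]
      simp
    rw [z, zero_add, Nat.add_sub_cancel_left, add_comm (1 : ℝ) q, add_pow, mul_sum]
    apply sum_congr rfl
    intro j _
    have h := Nat.choose_mul (n := T + r) (k := T + j) (s := T) (by omega)
    rw [Nat.add_sub_cancel_left, Nat.add_sub_cancel_left] at h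
    have h' : ((T + r).choose (T + j) : ℝ) * ((T + j).choose T : ℝ) =
        ((T + r).choose T : ℝ) * (r.choose j : ℝ) := by exact_mod_cast h
    rw [h', pow_add]
    simp only [one_pow, mul_one]
    ring
  · rw [Nat.choose_eq_zero_of_lt hT]
    simp only [Nat.cast_zero, zero_mul]
    apply sum_eq_zero
    intro x hx
    have hx' : x < T := by have := mem_range.mp hx; omega
    rw [Nat.choose_eq_zero_of_lt hx']
    simp

lemma choose_le_mul (a k T : ℕ) (hk : k ≤ T) : a.choose k ≤ T.choose k * (1 + a.choose T) := by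
  rcases le_or_gt T a with h | h
  · have h1 := Nat.choose_mul (n := a) (k := T) (s := k) hk
    have h2 : 0 < (a - k).choose (T - k) := Nat.choose_pos (by omega)
    calc a.choose k ≤ a.choose k * (a - k).choose (T - k) := Nat.le_mul_of_pos_right _ h2
      _ = a.choose T * T.choose k := h1.symm
      _ ≤ T.choose k * (1 + a.choose T) := by nlinarith
  · calc a.choose k ≤ T.choose k := Nat.choose_le_choose k h.le
      _ ≤ T.choose k * (1 + a.choose T) := Nat.le_mul_of_pos_right _ (by omega)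

lemma descFactorial_mul_pow_le (T N : ℕ) (h : T ≤ N) (k : ℕ) :
    T.descFactorial k * N ^ k ≤ N.descFactorial k * T ^ k := by
  induction k with
  | zero => simp
  | succ k ih =>
    rw [Nat.descFactorial_succ, Nat.descFactorial_succ, pow_succ, pow_succ]
    have h1 : (T - k) * N ≤ (N - k) * T := by
      rcases le_or_gt k T with hk | hk
      · obtain ⟨x, rfl⟩ : ∃ x, T = k + x := ⟨T - k, by omega⟩
        obtain ⟨y, rfl⟩ : ∃ y, N = k + x + y := ⟨N - (k + x), by omega⟩
        have e1 : k + x - k = x := by omega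
        have e2 : k + x + y - k = x + y := by omega
        rw [e1, e2]
        nlinarith
      · rw [Nat.sub_eq_zero_of_le hk.le]; simp
    calc (T - k) * T.descFactorial k * (N ^ k * N)
        = ((T - k) * N) * (T.descFactorial k * N ^ k) := by ring
      _ ≤ ((N - k) * T) * (N.descFactorial k * T ^ k) := Nat.mul_le_mul h1 ih
      _ = (N - k) * N.descFactorial k * (T ^ k * T) := by ring

lemma choose_mul_pow_le (T N : ℕ) (h : T ≤ N) (k : ℕ) :
    T.choose k * N ^ k ≤ N.choose k * T ^ k := by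
  have h1 := descFactorial_mul_pow_le T N h k
  rw [Nat.descFactorial_eq_factorial_mul_choose, Nat.descFactorial_eq_factorial_mul_choose,
    mul_assoc, mul_assoc] at h1
  exact Nat.le_of_mul_le_mul_left h1 (Nat.factorial_pos k)

lemma choose_succ_le (N k : ℕ) (hk : k ≤ N) : (N + 1).choose k ≤ (k + 1) * N.choose k := by
  have h := Nat.choose_mul_succ_eq N k
  have hpos : 0 < N + 1 - k := by omega
  have h2 : N + 1 ≤ (k + 1) * (N + 1 - k) := by
    obtain ⟨x, rfl⟩ : ∃ x, N = k + x := ⟨N - k, by omega⟩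
    have e : k + x + 1 - k = x + 1 := by omega
    rw [e]; nlinarith
  have h3 : (N + 1).choose k * (N + 1 - k) ≤ ((k + 1) * N.choose k) * (N + 1 - k) := by
    calc (N + 1).choose k * (N + 1 - k) = N.choose k * (N + 1) := h.symm
      _ ≤ N.choose k * ((k + 1) * (N + 1 - k)) := Nat.mul_le_mul_left _ h2
      _ = ((k + 1) * N.choose k) * (N + 1 - k) := by ring
  exact Nat.le_of_mul_le_mul_right h3 hpos

lemma exp_one_sq_le : Real.exp 1 ^ 2 ≤ 8 := by
  have h := Real.exp_one_lt_d9
  have h0 := Real.exp_pos 1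
  nlinarith

/-- The binomial tail estimate. -/
lemma tail_le_one (n T : ℕ) (q : ℝ) (hq0 : 0 ≤ q) (hT : 1 ≤ T) (h : 8 * (n : ℝ) * q ≤ T) :
    (n.choose T : ℝ) * q ^ T * (1 + q) ^ n ≤ 1 := by
  have hTpos : (0 : ℝ) < T := by exact_mod_cast hT
  have hfac : (0 : ℝ) < (T.factorial : ℝ) := by exact_mod_cast Nat.factorial_pos T
  have h1 : (n.choose T : ℝ) ≤ (n : ℝ) ^ T / (T.factorial : ℝ) := Nat.choose_le_pow_div T n
  have h2 : (T : ℝ) ^ T / (T.factorial : ℝ) ≤ Real.exp T :=
    Real.pow_div_factorial_le_exp (x := (T : ℝ)) hTpos.le T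
  have h3 : (1 + q) ^ n ≤ Real.exp T := by
    calc (1 + q) ^ n ≤ (Real.exp q) ^ n := by
          apply pow_le_pow_left₀ (by linarith)
          rw [add_comm]; exact Real.add_one_le_exp q
      _ = Real.exp (n * q) := by rw [← Real.exp_nat_mul]
      _ ≤ Real.exp T := by
          apply Real.exp_le_exp.mpr
          nlinarith [mul_nonneg (Nat.cast_nonneg n : (0 : ℝ) ≤ n) hq0]
  have h4 : (1 : ℝ) / (T.factorial : ℝ) ≤ Real.exp T / (T : ℝ) ^ T := by
    rw [div_le_div_iff₀ hfac (by positivity)]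
    rw [div_le_iff₀ hfac] at h2
    linarith
  have hnq : 0 ≤ (n : ℝ) * q := by positivity
  calc (n.choose T : ℝ) * q ^ T * (1 + q) ^ n
      ≤ ((n : ℝ) ^ T / (T.factorial : ℝ)) * q ^ T * Real.exp T := by
        apply mul_le_mul (mul_le_mul_of_nonneg_right h1 (by positivity)) h3 (by positivity)
          (by positivity)
    _ = ((n : ℝ) * q) ^ T * (1 / (T.factorial : ℝ)) * Real.exp T := by
        rw [mul_pow]; ring
    _ ≤ ((n : ℝ) * q) ^ T * (Real.exp T / (T : ℝ) ^ T) * Real.exp T := by
        apply mul_le_mul_of_nonneg_right _ (Real.exp_pos _).le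
        exact mul_le_mul_of_nonneg_left h4 (by positivity)
    _ = ((n : ℝ) * q * Real.exp 1 ^ 2 / T) ^ T := by
        have e : Real.exp (T : ℝ) = Real.exp 1 ^ T := by
          rw [← Real.exp_nat_mul, mul_one]
        rw [e, div_pow, mul_pow, mul_pow, mul_pow, ← pow_mul, mul_comm 2 T, pow_mul, sq]
        field_simp
    _ ≤ 1 := by
        apply pow_le_one₀ (by positivity)
        rw [div_le_one hTpos]
        calc (n : ℝ) * q * Real.exp 1 ^ 2 ≤ (n : ℝ) * q * 8 :=
              mul_le_mul_of_nonneg_left exp_one_sq_le hnq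
          _ ≤ T := by linarith

/-- From tail counts to binomial moments. -/
lemma sum_choose_le {ι : Type*} (A : Finset ι) (a : ι → ℕ) (n : ℕ) (ha : ∀ c ∈ A, a c ≤ n)
    (K q : ℝ) (hK : 0 ≤ K) (hq : 0 ≤ q)
    (htail : ∀ d : ℕ, ((A.filter (fun c => d ≤ a c)).card : ℝ) ≤ K * (n.choose d : ℝ) * q ^ d)
    (t : ℕ) :
    ∑ c ∈ A, ((a c).choose (t + 1) : ℝ) ≤
      K * ((n.choose (t + 1) : ℝ) * q ^ (t + 1) * (1 + q) ^ (n - (t + 1))) := by
  have step1 : ∑ c ∈ A, ((a c).choose (t + 1) : ℝ) =
      ∑ j ∈ range n, (j.choose t : ℝ) * ((A.filter (fun c => j + 1 ≤ a c)).card : ℝ) := by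
    calc ∑ c ∈ A, ((a c).choose (t + 1) : ℝ)
        = ∑ c ∈ A, ∑ j ∈ range n, (if j + 1 ≤ a c then (j.choose t : ℝ) else 0) := by
          apply sum_congr rfl
          intro c hc
          rw [← hockey, ← sum_filter]
          push_cast
          apply sum_congr _ (fun _ _ => rfl)
          ext j
          simp only [mem_range, mem_filter]
          have := ha c hc
          omega
      _ = ∑ j ∈ range n, ∑ c ∈ A, (if j + 1 ≤ a c then (j.choose t : ℝ) else 0) := sum_comm
      _ = _ := by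
          apply sum_congr rfl
          intro j _
          rw [← sum_filter, sum_const, nsmul_eq_mul, mul_comm]
  rw [step1, ← binom_identity, mul_sum, sum_range_succ']
  have hlast : 0 ≤ K * ((n.choose 0 : ℝ) * ((0 : ℕ).choose (t + 1) : ℝ) * q ^ 0) := by positivity
  refine le_trans ?_ (le_add_of_nonneg_right hlast)
  apply sum_le_sum
  intro j _
  have h1 : (j.choose t : ℝ) ≤ ((j + 1).choose (t + 1) : ℝ) := by
    exact_mod_cast (by rw [Nat.choose_succ_succ]; omega : j.choose t ≤ (j + 1).choose (t + 1))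
  calc (j.choose t : ℝ) * ((A.filter (fun c => j + 1 ≤ a c)).card : ℝ)
      ≤ ((j + 1).choose (t + 1) : ℝ) * (K * (n.choose (j + 1) : ℝ) * q ^ (j + 1)) :=
        mul_le_mul h1 (htail (j + 1)) (by positivity) (by positivity)
    _ = K * ((n.choose (j + 1) : ℝ) * ((j + 1).choose (t + 1) : ℝ) * q ^ (j + 1)) := by ring

end Vale.Agent.P064
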