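import Mathlib

namespace Vale.Agent.P064

open Finset

variable {V : Type*} [Fintype V] [DecidableEq V]

lemma count_sides (c : V) (S : Finset V) (k : ℕ) (hc : c ∉ S) (hS : S.card = k) :
    2 ^ Fintype.card V ≤
      2 ^ (k + 1) * ((univ : Finset V).powerset.filter (fun A => c ∈ A ∧ Disjoint S A)).card := by
  have hcard : (insert c S).card = k + 1 := by rw [card_insert_of_notMem hc, hS]
  have hle : k + 1 ≤ Fintype.card V := by rw [← hcard]; exact card_le_univ _
  have h1 : ((univ \ insert c S).powerset.image (fun B => insert c B)) ⊆
      (univ : Finset V).powerset.filter (fun A => c ∈ A ∧ Disjoint S A) := by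
    intro A hA
    obtain ⟨B, hB, rfl⟩ := mem_image.mp hA
    rw [mem_powerset] at hB
    simp only [mem_filter, mem_powerset, subset_univ, true_and, mem_insert, true_or]
    rw [disjoint_left]
    intro x hx hx'
    rcases mem_insert.mp hx' with rfl | hxB
    · exact hc hx
    · have := hB hxB
      simp only [mem_sdiff, mem_univ, mem_insert, true_and, not_or] at this
      exact this.2 hx
  have h2 : ((univ \ insert c S).powerset.image (fun B => insert c B)).card =
      2 ^ (Fintype.card V - (k + 1)) := by
    rw [card_image_of_injOn, card_powerset, card_sdiff_of_subset (subset_univ _), card_univ, hcard]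
    intro B hB B' hB' h
    have hcB : c ∉ B := fun hh => by
      have := (mem_powerset.mp (mem_coe.mp hB)) hh
      simp at this
    have hcB' : c ∉ B' := fun hh => by
      have := (mem_powerset.mp (mem_coe.mp hB')) hh
      simp at this
    have h' : insert c B = insert c B' := h
    rw [← erase_insert hcB, h', erase_insert hcB']
  calc 2 ^ Fintype.card V = 2 ^ (k + 1) * 2 ^ (Fintype.card V - (k + 1)) := by
        rw [← pow_add]; congr 1; omega
    _ ≤ _ := Nat.mul_le_mul_left _ (h2 ▸ card_le_card h1)

lemma exists_bipartition (H : SimpleGraph V) [DecidableRel H.Adj] (k : ℕ) :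
    ∃ A : Finset V, ∑ c, (H.degree c).choose k ≤
      2 ^ (k + 1) * ∑ c ∈ A, ((H.neighborFinset c \ A).card).choose k := by
  have key : ∑ _A ∈ (univ : Finset V).powerset, ∑ c, (H.degree c).choose k ≤
      ∑ A ∈ (univ : Finset V).powerset,
        2 ^ (k + 1) * ∑ c ∈ A, ((H.neighborFinset c \ A).card).choose k := by
    have e1 : ∀ A : Finset V, ∑ c ∈ A, ((H.neighborFinset c \ A).card).choose k =
        ∑ c, ∑ S ∈ powersetCard k (H.neighborFinset c),
          (if c ∈ A ∧ Disjoint S A then 1 else 0) := by
      intro A
      rw [← sum_filter_add_sum_filter_not univ (fun c => c ∈ A)]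
      have z : ∑ c ∈ univ.filter (fun c => ¬ c ∈ A), ∑ S ∈ powersetCard k (H.neighborFinset c),
          (if c ∈ A ∧ Disjoint S A then 1 else 0) = 0 := by
        apply sum_eq_zero
        intro c hc
        apply sum_eq_zero
        intro S _
        rw [if_neg]
        intro h
        exact (mem_filter.mp hc).2 h.1
      rw [z, add_zero, filter_mem_eq_inter, univ_inter]
      apply sum_congr rfl
      intro c hc
      rw [← card_powersetCard, card_eq_sum_ones, ← sum_filter]
      apply sum_congr _ (fun _ _ => rfl)
      ext S
      simp only [mem_powersetCard, mem_filter, subset_sdiff, hc, true_and]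
      tauto
    simp_rw [e1, mul_sum]
    rw [sum_const, card_powerset, card_univ, smul_eq_mul, mul_sum, sum_comm]
    apply sum_le_sum
    intro c _
    rw [sum_comm, ← SimpleGraph.card_neighborFinset_eq_degree, ← card_powersetCard,
      card_eq_sum_ones, mul_sum]
    apply sum_le_sum
    intro S hS
    rw [mem_powersetCard] at hS
    have hc : c ∉ S := fun h => by
      have := hS.1 h
      simp at this
    have := count_sides c S k hc hS.2
    rw [mul_one, ← mul_sum, ← sum_filter, ← card_eq_sum_ones]
    exact this
  obtain ⟨A, -, hA⟩ := exists_le_of_sum_le (powerset_nonempty _) key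
  exact ⟨A, hA⟩

end Vale.Agent.P064
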