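import Mathlib

namespace Vale.Agent.P064

/-- `copies H F`: the number of subgraphs `G` of `H` (all graphs live on the same vertex set `V`,
so a subgraph is a set of edges of `H`) that are isomorphic to `F`. -/
noncomputable def copies {V : Type*} (H F : SimpleGraph V) : ℕ :=
  Set.ncard {G : SimpleGraph V | G ≤ H ∧ Nonempty (G ≃g F)}

/-- The star with centre `c` and leaf set `S` (as a graph on the whole vertex set `V`). -/
def starGraph {V : Type*} (c : V) (S : Finset V) : SimpleGraph V where
  Adj a b := a ≠ b ∧ ((a = c ∧ b ∈ S) ∨ (b = c ∧ a ∈ S))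
  symm := ⟨fun _ _ h => ⟨h.1.symm, h.2.symm⟩⟩
  loopless := ⟨fun _ h => h.1 rfl⟩

end Vale.Agent.P064
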