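import Vale.Agent.P064.StarSys
import Vale.Agent.P064.Analysis
import Vale.Agent.P064.Bipart

namespace Vale.Agent.P064

open Finset

variable {V : Type*} [Fintype V] [DecidableEq V]

/-- Tail counts of one-sided degrees. -/
lemma tail_count (H : SimpleGraph V) [DecidableRel H.Adj] (q : ℝ) (hq0 : 0 ≤ q) (hq1 : q ≤ 1)
    (hyp : ∀ F : SimpleGraph V, F ≤ H → 1 ≤ (copies ⊤ F : ℝ) * q ^ F.edgeSet.ncard)
    (A : Finset V) (d : ℕ) :
    ((A.filter (fun c => d ≤ (H.neighborFinset c \ A).card)).card : ℝ) ≤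
      (Real.exp 1 * (Fintype.card V : ℝ)) * ((Fintype.card V).choose d : ℝ) * q ^ d := by
  classical
  have hex : ∀ c : V, ∃ S : Finset V, d ≤ (H.neighborFinset c \ A).card →
      (S ⊆ H.neighborFinset c \ A ∧ S.card = d) := by
    intro c
    by_cases h : d ≤ (H.neighborFinset c \ A).card
    · obtain ⟨S, hS, hcard⟩ := exists_subset_card_eq h
      exact ⟨S, fun _ => ⟨hS, hcard⟩⟩
    · exact ⟨∅, fun h' => absurd h' h⟩
  choose S hS using hex
  have := card_centres_le H q hq0 hq1 hyp A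
    (A.filter (fun c => d ≤ (H.neighborFinset c \ A).card)) S d (filter_subset _ _)
    (by
      intro c hc
      have h := (hS c (mem_filter.mp hc).2).1
      rw [subset_sdiff] at h
      exact h.2)
    (fun c hc => (hS c (mem_filter.mp hc).2).2)
    (by
      intro c hc x hx
      have h := (hS c (mem_filter.mp hc).2).1 hx
      simp only [mem_sdiff, SimpleGraph.mem_neighborFinset] at h
      exact h.1)
  calc _ ≤ _ := this
    _ = _ := by ring

theorem star_bound (H : SimpleGraph V) [DecidableRel H.Adj] (q : ℝ) (hq0 : 0 ≤ q) (hq1 : q ≤ 1)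
    (hyp : ∀ F : SimpleGraph V, F ≤ H → 1 ≤ (copies ⊤ F : ℝ) * q ^ F.edgeSet.ncard)
    (k : ℕ) (hk : 1 ≤ k) :
    (∑ c, ((H.degree c).choose k : ℝ)) ≤
      (Fintype.card V : ℝ) * ((Fintype.card V - 1).choose k : ℝ) * (min 1 (512 * q)) ^ k := by
  set n := Fintype.card V with hn
  have hdeg : ∀ c, H.degree c ≤ n - 1 := fun c => by
    have := H.degree_lt_card_verts c
    omega
  have htriv : (∑ c, ((H.degree c).choose k : ℝ)) ≤ (n : ℝ) * ((n - 1).choose k : ℝ) := by
    calc (∑ c, ((H.degree c).choose k : ℝ)) ≤ ∑ _c : V, ((n - 1).choose k : ℝ) := by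
          apply sum_le_sum
          intro c _
          exact_mod_cast Nat.choose_le_choose k (hdeg c)
      _ = (n : ℝ) * ((n - 1).choose k : ℝ) := by
          rw [sum_const, card_univ, nsmul_eq_mul]
  by_cases hL : 1 ≤ 512 * q
  · rw [min_eq_left hL, one_pow, mul_one]; exact htriv
  push Not at hL
  rw [min_eq_right hL.le]
  by_cases hkn : k ≤ n - 1
  swap
  · have : (∑ c, ((H.degree c).choose k : ℝ)) = 0 := by
      apply sum_eq_zero
      intro c _
      rw [Nat.choose_eq_zero_of_lt (by have := hdeg c; omega)]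
      simp
    rw [this]; positivity
  obtain ⟨N, hN⟩ : ∃ N, n = N + 1 := ⟨n - 1, by omega⟩
  have hkN : k ≤ N := by omega
  have hN1 : 1 ≤ N := by omega
  have hNsub : n - 1 = N := by omega
  rw [hNsub]
  obtain ⟨A, hA⟩ := exists_bipartition H k
  set a : V → ℕ := fun c => (H.neighborFinset c \ A).card with ha
  have haN : ∀ c ∈ A, a c ≤ n := fun c _ => by
    calc a c ≤ (H.neighborFinset c).card := card_le_card sdiff_subset
      _ = H.degree c := H.card_neighborFinset_eq_degree c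
      _ ≤ n := by have := hdeg c; omega
  set K : ℝ := Real.exp 1 * (n : ℝ) with hK
  have hK0 : 0 ≤ K := by positivity
  have htail := tail_count H q hq0 hq1 hyp A
  have hmom : ∀ t : ℕ, ∑ c ∈ A, ((a c).choose (t + 1) : ℝ) ≤
      K * ((n.choose (t + 1) : ℝ) * q ^ (t + 1) * (1 + q) ^ (n - (t + 1))) :=
    fun t => sum_choose_le A a n haN K q hK0 hq0 htail t
  set f : ℝ := ∑ c ∈ A, ((a c).choose k : ℝ) with hf
  have hR : (∑ c, ((H.degree c).choose k : ℝ)) ≤ 2 ^ (k + 1) * f := by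
    have : ((∑ c, (H.degree c).choose k : ℕ) : ℝ) ≤
        ((2 ^ (k + 1) * ∑ c ∈ A, (a c).choose k : ℕ) : ℝ) := by exact_mod_cast hA
    push_cast at this
    exact this
  have he1 : (1 : ℝ) ≤ Real.exp 1 := by
    have := Real.add_one_le_exp (1 : ℝ); linarith
  have he3 : Real.exp 1 ≤ 3 := by
    have := Real.exp_one_lt_d9; linarith
  have hCn0 : (0 : ℝ) ≤ (N.choose k : ℝ) := by positivity
  have hn0 : (0 : ℝ) ≤ (n : ℝ) := by positivity
  have hqk : 0 ≤ q ^ k := by positivity
  have hpowmono : ∀ j : ℕ, (1 + q) ^ (n - j) ≤ (1 + q) ^ n := fun j =>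
    pow_le_pow_right₀ (by linarith) (Nat.sub_le _ _)
  obtain ⟨t, rfl⟩ : ∃ t, k = t + 1 := ⟨k - 1, by omega⟩
  by_cases hcase : 8 * (n : ℝ) * q ≤ ((t + 1 : ℕ) : ℝ)
  · -- small average degree
    have h1 := hmom t
    have h2 : (1 + q) ^ (n - (t + 1)) ≤ Real.exp 1 ^ (t + 1) := by
      calc (1 + q) ^ (n - (t + 1)) ≤ (1 + q) ^ n := hpowmono _
        _ ≤ (Real.exp q) ^ n := by
          apply pow_le_pow_left₀ (by linarith)
          rw [add_comm]; exact Real.add_one_le_exp q
        _ = Real.exp (n * q) := by rw [← Real.exp_nat_mul]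
        _ ≤ Real.exp ((t + 1 : ℕ) : ℝ) := by
          apply Real.exp_le_exp.mpr
          nlinarith [mul_nonneg hn0 hq0]
        _ = Real.exp 1 ^ (t + 1) := by rw [← Real.exp_nat_mul, mul_one]
    have h3 : (n.choose (t + 1) : ℝ) ≤ 2 ^ (t + 1) * (N.choose (t + 1) : ℝ) := by
      have h := choose_succ_le N (t + 1) hkN
      have h' : t + 1 + 1 ≤ 2 ^ (t + 1) := Nat.lt_two_pow_self
      rw [hN]
      calc ((N + 1).choose (t + 1) : ℝ) ≤ ((t + 1 + 1 : ℕ) : ℝ) * (N.choose (t + 1) : ℝ) := by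
            exact_mod_cast h
        _ ≤ 2 ^ (t + 1) * (N.choose (t + 1) : ℝ) := by
            apply mul_le_mul_of_nonneg_right _ hCn0
            exact_mod_cast h'
    have h4 : f ≤ K * (2 ^ (t + 1) * (N.choose (t + 1) : ℝ) * q ^ (t + 1) * Real.exp 1 ^ (t + 1)) := by
      refine h1.trans (mul_le_mul_of_nonneg_left ?_ hK0)
      apply mul_le_mul _ h2 (by positivity) (by positivity)
      exact mul_le_mul_of_nonneg_right h3 hqk
    have h5 : 2 * Real.exp 1 * (4 * Real.exp 1) ^ (t + 1) ≤ 512 ^ (t + 1) := by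
      calc 2 * Real.exp 1 * (4 * Real.exp 1) ^ (t + 1)
          ≤ (2 * Real.exp 1) ^ (t + 1) * (4 * Real.exp 1) ^ (t + 1) := by
            apply mul_le_mul_of_nonneg_right _ (by positivity)
            exact le_self_pow₀ (by linarith) (by omega)
        _ = (8 * Real.exp 1 ^ 2) ^ (t + 1) := by rw [← mul_pow]; ring_nf
        _ ≤ 512 ^ (t + 1) := by
            apply pow_le_pow_left₀ (by positivity)
            have := exp_one_sq_le; linarith
    calc (∑ c, ((H.degree c).choose (t + 1) : ℝ)) ≤ 2 ^ (t + 1 + 1) * f := hR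
      _ ≤ 2 ^ (t + 1 + 1) *
          (K * (2 ^ (t + 1) * (N.choose (t + 1) : ℝ) * q ^ (t + 1) * Real.exp 1 ^ (t + 1))) :=
          mul_le_mul_of_nonneg_left h4 (by positivity)
      _ = (n : ℝ) * (N.choose (t + 1) : ℝ) * q ^ (t + 1) *
          (2 * Real.exp 1 * (4 * Real.exp 1) ^ (t + 1)) := by
          rw [hK, mul_pow]
          have : (4 : ℝ) ^ (t + 1) = 2 ^ (t + 1) * 2 ^ (t + 1) := by
            rw [← mul_pow]; norm_num
          rw [this]; ring
      _ ≤ (n : ℝ) * (N.choose (t + 1) : ℝ) * q ^ (t + 1) * 512 ^ (t + 1) :=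
          mul_le_mul_of_nonneg_left h5 (by positivity)
      _ = (n : ℝ) * (N.choose (t + 1) : ℝ) * (512 * q) ^ (t + 1) := by rw [mul_pow]; ring
  · -- large average degree
    push Not at hcase
    set T := ⌈8 * (n : ℝ) * q⌉₊ with hT
    have hTge : 8 * (n : ℝ) * q ≤ (T : ℝ) := Nat.le_ceil _
    have hTlt : (T : ℝ) < 8 * (n : ℝ) * q + 1 := Nat.ceil_lt_add_one (by positivity)
    have hkT : t + 1 ≤ T := by
      have : ((t + 1 : ℕ) : ℝ) < (T : ℝ) := lt_of_lt_of_le hcase hTge
      have : t + 1 < T := by exact_mod_cast this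
      omega
    have h1le : (1 : ℝ) ≤ 8 * (n : ℝ) * q := by
      have : (1 : ℝ) ≤ ((t + 1 : ℕ) : ℝ) := by exact_mod_cast (by omega : 1 ≤ t + 1)
      linarith
    have hT16 : (T : ℝ) ≤ 16 * (n : ℝ) * q := by linarith
    have hnN : (n : ℝ) = (N : ℝ) + 1 := by rw [hN]; push_cast; ring
    have hN1' : (1 : ℝ) ≤ (N : ℝ) := by exact_mod_cast hN1
    have hTN : T ≤ N := by
      by_contra hcon
      push Not at hcon
      have : (n : ℝ) ≤ (T : ℝ) := by exact_mod_cast (by omega : n ≤ T)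
      have hnpos : (0 : ℝ) < (n : ℝ) := by linarith
      nlinarith
    obtain ⟨T', hT'⟩ : ∃ T', T = T' + 1 := ⟨T - 1, by omega⟩
    have hmomT : ∑ c ∈ A, ((a c).choose T : ℝ) ≤ K := by
      have h := hmom T'
      rw [← hT'] at h
      refine h.trans ?_
      have h2 : (n.choose T : ℝ) * q ^ T * (1 + q) ^ (n - T) ≤ 1 := by
        calc (n.choose T : ℝ) * q ^ T * (1 + q) ^ (n - T)
            ≤ (n.choose T : ℝ) * q ^ T * (1 + q) ^ n :=
              mul_le_mul_of_nonneg_left (hpowmono T) (by positivity)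
          _ ≤ 1 := tail_le_one n T q hq0 (by omega) hTge
      calc K * _ ≤ K * 1 := mul_le_mul_of_nonneg_left h2 hK0
        _ = K := mul_one K
    have hf1 : f ≤ (T.choose (t + 1) : ℝ) * ((n : ℝ) + K) := by
      calc f ≤ ∑ c ∈ A, (T.choose (t + 1) : ℝ) * (1 + ((a c).choose T : ℝ)) := by
            apply sum_le_sum
            intro c _
            exact_mod_cast choose_le_mul (a c) (t + 1) T hkT
        _ = (T.choose (t + 1) : ℝ) * ((A.card : ℝ) + ∑ c ∈ A, ((a c).choose T : ℝ)) := by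
            rw [← mul_sum, sum_add_distrib, sum_const, nsmul_eq_mul, mul_one]
        _ ≤ (T.choose (t + 1) : ℝ) * ((n : ℝ) + K) := by
            apply mul_le_mul_of_nonneg_left _ (by positivity)
            apply add_le_add _ hmomT
            exact_mod_cast card_le_univ A
    have hTch : (T.choose (t + 1) : ℝ) ≤ (N.choose (t + 1) : ℝ) * (32 * q) ^ (t + 1) := by
      have h := choose_mul_pow_le T N hTN (t + 1)
      have h' : (T.choose (t + 1) : ℝ) * (N : ℝ) ^ (t + 1) ≤
          (N.choose (t + 1) : ℝ) * (T : ℝ) ^ (t + 1) := by exact_mod_cast h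
      have hNpos : (0 : ℝ) < (N : ℝ) ^ (t + 1) := by positivity
      have hTle : (T : ℝ) ≤ 32 * q * (N : ℝ) := by nlinarith
      have h'' : (T : ℝ) ^ (t + 1) ≤ (32 * q) ^ (t + 1) * (N : ℝ) ^ (t + 1) := by
        rw [← mul_pow]
        exact pow_le_pow_left₀ (by positivity) hTle _
      have h3 : (T.choose (t + 1) : ℝ) * (N : ℝ) ^ (t + 1) ≤
          ((N.choose (t + 1) : ℝ) * (32 * q) ^ (t + 1)) * (N : ℝ) ^ (t + 1) := by
        calc _ ≤ (N.choose (t + 1) : ℝ) * (T : ℝ) ^ (t + 1) := h'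
          _ ≤ (N.choose (t + 1) : ℝ) * ((32 * q) ^ (t + 1) * (N : ℝ) ^ (t + 1)) :=
            mul_le_mul_of_nonneg_left h'' hCn0
          _ = _ := by ring
      exact le_of_mul_le_mul_right h3 hNpos
    have h8 : (8 : ℝ) ≤ 8 ^ (t + 1) := le_self_pow₀ (by norm_num) (by omega)
    calc (∑ c, ((H.degree c).choose (t + 1) : ℝ)) ≤ 2 ^ (t + 1 + 1) * f := hR
      _ ≤ 2 ^ (t + 1 + 1) * (((N.choose (t + 1) : ℝ) * (32 * q) ^ (t + 1)) * ((n : ℝ) + K)) := by
          apply mul_le_mul_of_nonneg_left _ (by positivity)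
          exact hf1.trans (mul_le_mul_of_nonneg_right hTch (by positivity))
      _ = (n : ℝ) * (N.choose (t + 1) : ℝ) * (64 * q) ^ (t + 1) * (2 * (1 + Real.exp 1)) := by
          rw [hK, mul_pow, mul_pow]
          have : (64 : ℝ) ^ (t + 1) = 2 ^ (t + 1) * 32 ^ (t + 1) := by
            rw [← mul_pow]; norm_num
          rw [this]; ring
      _ ≤ (n : ℝ) * (N.choose (t + 1) : ℝ) * (64 * q) ^ (t + 1) * 8 ^ (t + 1) := by
          apply mul_le_mul_of_nonneg_left _ (by positivity)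
          linarith
      _ = (n : ℝ) * (N.choose (t + 1) : ℝ) * (512 * q) ^ (t + 1) := by
          rw [mul_assoc, ← mul_pow]; ring_nf

end Vale.Agent.P064
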