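import Vale.Agent.P064.Defs

namespace Vale.Agent.P064

open Finset

variable {V : Type*} [Fintype V] [DecidableEq V]

set_option linter.unusedSectionVars false

/-- Union of the stars `(centre, leaf set)` listed in `T`. -/
def starUnion (T : Finset (V × Finset V)) : SimpleGraph V where
  Adj a b := a ≠ b ∧ ∃ t ∈ T, (a = t.1 ∧ b ∈ t.2) ∨ (b = t.1 ∧ a ∈ t.2)
  symm := ⟨fun _ _ ⟨hne, t, ht, h⟩ => ⟨hne.symm, t, ht, h.symm⟩⟩
  loopless := ⟨fun _ h => h.1 rfl⟩

lemma starUnion_adj (T : Finset (V × Finset V)) (a b : V) :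
    (starUnion T).Adj a b ↔ a ≠ b ∧ ∃ t ∈ T, (a = t.1 ∧ b ∈ t.2) ∨ (b = t.1 ∧ a ∈ t.2) := Iff.rfl

lemma iso_starUnion_subset (T : Finset (V × Finset V)) (m d : ℕ) (hm : T.card = m)
    (hd : ∀ t ∈ T, t.2.card = d) :
    {G : SimpleGraph V | G ≤ ⊤ ∧ Nonempty (G ≃g starUnion T)} ⊆
      starUnion '' (↑(powersetCard m ((univ : Finset V) ×ˢ powersetCard d (univ : Finset V))) :
        Set (Finset (V × Finset V))) := by
  rintro G ⟨-, ⟨e⟩⟩
  let π : V ≃ V := e.symm.toEquiv
  let φ : V × Finset V → V × Finset V := fun t => (π t.1, t.2.image π)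
  have hφ : Function.Injective φ := by
    intro s t h
    simp only [φ, Prod.mk.injEq] at h
    obtain ⟨h1, h2⟩ := h
    exact Prod.ext (π.injective h1) (Finset.image_injective π.injective h2)
  refine ⟨T.image φ, ?_, ?_⟩
  · refine Finset.mem_coe.mpr (Finset.mem_powersetCard.mpr ⟨?_, ?_⟩)
    · intro t ht
      obtain ⟨s, hs, rfl⟩ := Finset.mem_image.mp ht
      simp only [φ, mem_product, mem_univ, true_and, mem_powersetCard, subset_univ]
      rw [Finset.card_image_of_injective _ π.injective]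
      exact hd s hs
    · rw [Finset.card_image_of_injective _ hφ, hm]
  · ext a b
    rw [← e.map_adj_iff, starUnion_adj, starUnion_adj]
    constructor
    · rintro ⟨hne, t, ht, h⟩
      obtain ⟨s, hs, rfl⟩ := Finset.mem_image.mp ht
      refine ⟨fun h' => hne (e.injective h'), s, hs, ?_⟩
      simp only [φ, Finset.mem_image] at h
      rcases h with ⟨h1, x, hx, h2⟩ | ⟨h1, x, hx, h2⟩
      · left
        refine ⟨?_, ?_⟩
        · rw [h1]; exact e.apply_symm_apply _
        · rw [← h2]
          have : e (π x) = x := e.apply_symm_apply _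
          rw [this]; exact hx
      · right
        refine ⟨?_, ?_⟩
        · rw [h1]; exact e.apply_symm_apply _
        · rw [← h2]
          have : e (π x) = x := e.apply_symm_apply _
          rw [this]; exact hx
    · rintro ⟨hne, s, hs, h⟩
      refine ⟨fun h' => hne (by rw [h']), φ s, Finset.mem_image_of_mem _ hs, ?_⟩
      simp only [φ, Finset.mem_image]
      rcases h with ⟨h1, h2⟩ | ⟨h1, h2⟩
      · left
        refine ⟨?_, e b, h2, ?_⟩
        · rw [← h1]; exact (e.symm_apply_apply _).symm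
        · exact e.symm_apply_apply _
      · right
        refine ⟨?_, e a, h2, ?_⟩
        · rw [← h1]; exact (e.symm_apply_apply _).symm
        · exact e.symm_apply_apply _

lemma copies_top_starUnion_le (T : Finset (V × Finset V)) (m d : ℕ) (hm : T.card = m)
    (hd : ∀ t ∈ T, t.2.card = d) :
    copies ⊤ (starUnion T) ≤
      (Fintype.card V * (Fintype.card V).choose d).choose m := by
  unfold copies
  calc Set.ncard {G : SimpleGraph V | G ≤ ⊤ ∧ Nonempty (G ≃g starUnion T)}
      ≤ Set.ncard (starUnion '' (↑(powersetCard m ((univ : Finset V) ×ˢ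
          powersetCard d (univ : Finset V))) : Set (Finset (V × Finset V)))) :=
        Set.ncard_le_ncard (iso_starUnion_subset T m d hm hd) (Set.toFinite _)
    _ ≤ Set.ncard (↑(powersetCard m ((univ : Finset V) ×ˢ
          powersetCard d (univ : Finset V))) : Set (Finset (V × Finset V))) :=
        Set.ncard_image_le (Set.toFinite _)
    _ = (Fintype.card V * (Fintype.card V).choose d).choose m := by
        rw [Set.ncard_coe_finset, card_powersetCard, card_product, card_powersetCard, card_univ]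

/-- The star system with centres `I` and leaf sets `S c`. -/
def sysOf (I : Finset V) (S : V → Finset V) : Finset (V × Finset V) := I.image (fun c => (c, S c))

lemma card_sysOf (I : Finset V) (S : V → Finset V) : (sysOf I S).card = I.card := by
  unfold sysOf
  apply Finset.card_image_of_injective
  intro a b h
  exact (Prod.mk.inj h).1

lemma sysOf_le (H : SimpleGraph V) (I : Finset V) (S : V → Finset V)
    (hS : ∀ c ∈ I, ∀ x ∈ S c, H.Adj c x) : starUnion (sysOf I S) ≤ H := by
  intro a b h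
  rw [starUnion_adj] at h
  obtain ⟨-, t, ht, h⟩ := h
  obtain ⟨c, hc, rfl⟩ := Finset.mem_image.mp ht
  rcases h with ⟨rfl, h2⟩ | ⟨rfl, h2⟩
  · exact hS _ hc _ h2
  · exact (hS _ hc _ h2).symm

lemma le_edges_sysOf (A I : Finset V) (S : V → Finset V) (d : ℕ) (hI : I ⊆ A)
    (hS : ∀ c ∈ I, Disjoint (S c) A) (hd : ∀ c ∈ I, (S c).card = d) :
    I.card * d ≤ (starUnion (sysOf I S)).edgeSet.ncard := by
  let P : Finset (Sym2 V) := I.biUnion (fun c => (S c).image (fun x => s(c, x)))
  have hnotin : ∀ c ∈ I, ∀ x ∈ S c, x ∉ A := fun c hc x hx hxA =>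
    (Finset.disjoint_left.mp (hS c hc)) hx hxA
  have hcard : P.card = I.card * d := by
    rw [Finset.card_biUnion]
    · rw [Finset.sum_congr rfl (g := fun _ => d)]
      · simp
      · intro c hc
        rw [Finset.card_image_of_injective, hd c hc]
        intro x y hxy
        have hxy' : s(c, x) = s(c, y) := hxy
        rw [Sym2.eq_iff] at hxy'
        rcases hxy' with ⟨-, h⟩ | ⟨h1, h2⟩
        · exact h
        · rw [h2, h1]
    · intro c hc c' hc' hne
      show Disjoint _ _
      rw [Finset.disjoint_left]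
      intro z hz hz'
      obtain ⟨x, hx, rfl⟩ := Finset.mem_image.mp hz
      obtain ⟨x', hx', h⟩ := Finset.mem_image.mp hz'
      rw [Sym2.eq_iff] at h
      rcases h with ⟨h1, -⟩ | ⟨h1, -⟩
      · exact hne h1.symm
      · exact hnotin c hc x hx (h1 ▸ hI hc')
  have hsub : (↑P : Set (Sym2 V)) ⊆ (starUnion (sysOf I S)).edgeSet := by
    intro z hz
    obtain ⟨c, hc, hz⟩ := Finset.mem_biUnion.mp (Finset.mem_coe.mp hz)
    obtain ⟨x, hx, rfl⟩ := Finset.mem_image.mp hz
    rw [SimpleGraph.mem_edgeSet, starUnion_adj]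
    refine ⟨?_, (c, S c), Finset.mem_image_of_mem _ hc, Or.inl ⟨rfl, hx⟩⟩
    rintro rfl
    exact hnotin c hc c hx (hI hc)
  calc I.card * d = P.card := hcard.symm
    _ = (↑P : Set (Sym2 V)).ncard := (Set.ncard_coe_finset P).symm
    _ ≤ _ := Set.ncard_le_ncard hsub (Set.toFinite _)

/-- Key consequence of the expectation hypothesis: few centres of large one-sided degree. -/
lemma card_centres_le (H : SimpleGraph V) (q : ℝ) (hq0 : 0 ≤ q) (hq1 : q ≤ 1)
    (hyp : ∀ F : SimpleGraph V, F ≤ H → 1 ≤ (copies ⊤ F : ℝ) * q ^ F.edgeSet.ncard)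
    (A I : Finset V) (S : V → Finset V) (d : ℕ) (hI : I ⊆ A)
    (hS : ∀ c ∈ I, Disjoint (S c) A) (hd : ∀ c ∈ I, (S c).card = d)
    (hH : ∀ c ∈ I, ∀ x ∈ S c, H.Adj c x) :
    (I.card : ℝ) ≤ Real.exp 1 *
      ((Fintype.card V : ℝ) * ((Fintype.card V).choose d : ℝ) * q ^ d) := by
  set m := I.card with hm
  set n := Fintype.card V with hn
  set μ : ℝ := (n : ℝ) * (n.choose d : ℝ) * q ^ d with hμ
  have hμ0 : 0 ≤ μ := by positivity
  rcases Nat.eq_zero_or_pos m with h0 | hpos
  · rw [h0]; simp only [Nat.cast_zero]; positivity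
  have h1 := hyp _ (sysOf_le H I S hH)
  have h2 : (copies ⊤ (starUnion (sysOf I S)) : ℝ) ≤ ((n * n.choose d).choose m : ℝ) := by
    exact_mod_cast copies_top_starUnion_le (sysOf I S) m d (card_sysOf I S) (by
      intro t ht
      obtain ⟨c, hc, rfl⟩ := Finset.mem_image.mp ht
      exact hd c hc)
  have h3 : q ^ (starUnion (sysOf I S)).edgeSet.ncard ≤ q ^ (m * d) :=
    pow_le_pow_of_le_one hq0 hq1 (le_edges_sysOf A I S d hI hS hd)
  have h4 : (1 : ℝ) ≤ ((n * n.choose d).choose m : ℝ) * q ^ (m * d) := by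
    calc (1 : ℝ) ≤ _ := h1
      _ ≤ ((n * n.choose d).choose m : ℝ) * q ^ (m * d) := by
        apply mul_le_mul h2 h3 (by positivity) (by positivity)
  have h5 : ((n * n.choose d).choose m : ℝ) ≤ ((n * n.choose d : ℕ) : ℝ) ^ m / (m.factorial : ℝ) :=
    Nat.choose_le_pow_div m (n * n.choose d)
  have hfac : (0 : ℝ) < (m.factorial : ℝ) := by exact_mod_cast Nat.factorial_pos m
  have h6 : (m.factorial : ℝ) ≤ μ ^ m := by
    have : (1 : ℝ) ≤ ((n * n.choose d : ℕ) : ℝ) ^ m / (m.factorial : ℝ) * q ^ (m * d) :=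
      h4.trans (mul_le_mul_of_nonneg_right h5 (by positivity))
    have e : ((n * n.choose d : ℕ) : ℝ) ^ m / (m.factorial : ℝ) * q ^ (m * d) =
        μ ^ m / (m.factorial : ℝ) := by
      rw [hμ, mul_pow, ← pow_mul, mul_comm d m]
      push_cast
      ring
    rw [e, le_div_iff₀ hfac, one_mul] at this
    exact this
  have h7 : (m : ℝ) ^ m / (m.factorial : ℝ) ≤ Real.exp m :=
    Real.pow_div_factorial_le_exp (x := (m : ℝ)) (by positivity) m
  have h8 : (m : ℝ) ^ m ≤ (Real.exp 1 * μ) ^ m := by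
    rw [div_le_iff₀ hfac] at h7
    calc (m : ℝ) ^ m ≤ Real.exp m * (m.factorial : ℝ) := h7
      _ ≤ Real.exp m * μ ^ m := by
        apply mul_le_mul_of_nonneg_left h6 (Real.exp_pos _).le
      _ = (Real.exp 1 * μ) ^ m := by
        rw [mul_pow (Real.exp 1) μ m, ← Real.exp_nat_mul, mul_one]
  exact le_of_pow_le_pow_left₀ (by omega) (by positivity) h8

end Vale.Agent.P064
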